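import Mathlib
import Vale.Agent.P220.R2.H57.Ret

open Set Filter Topology
open scoped ContDiff

set_option linter.all false

namespace Vale.Agent.P220.R2.H795

open Vale.Agent.P220.R2.H57

/-- the complex Stiefel base: unit vectors `(x, y)` with `y` orthogonal to the complex line of `x` -/
def QJ {V : Type} [NormedAddCommGroup V] [InnerProductSpace ℝ V] (J : V ≃ₗᵢ[ℝ] V) :
    Set (WithLp 2 (V × V)) :=
  {x | ‖x.fst‖ ^ 2 + ‖x.snd‖ ^ 2 = 1 ∧ inner ℝ x.fst x.snd = (0 : ℝ) ∧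
    inner ℝ x.fst (J x.snd) = (0 : ℝ)}

theorem exists_invsqrt : ∃ g : ℝ → ℝ, ContDiff ℝ ∞ g ∧ ∀ t, 1 / 4 ≤ t → g t = (√t)⁻¹ := by
  set g : ℝ → ℝ := fun t => Real.smoothTransition (8 * t - 1) * (√t)⁻¹ with hg
  have hgs : ContDiff ℝ ∞ g := by
    rw [contDiff_iff_contDiffAt]
    intro t
    rcases lt_or_ge 0 t with ht | ht
    · have h1 : ContDiffAt ℝ ∞ (fun t : ℝ => √t) t := contDiffAt_id.sqrt ht.ne'
      have h2 : ContDiff ℝ ∞ fun t : ℝ => Real.smoothTransition (8 * t - 1) :=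
        Real.smoothTransition.contDiff.comp ((contDiff_const.mul contDiff_id).sub contDiff_const)
      exact h2.contDiffAt.mul (h1.inv (Real.sqrt_pos.2 ht).ne')
    · have h1 : g =ᶠ[𝓝 t] fun _ => 0 := by
        filter_upwards [Iio_mem_nhds (show t < 1 / 8 by linarith)] with x hx
        have : Real.smoothTransition (8 * x - 1) = 0 :=
          Real.smoothTransition.zero_of_nonpos (by rw [mem_Iio] at hx; linarith)
        simp only [hg, this, zero_mul]
      exact contDiffAt_const.congr_of_eventuallyEq h1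
  have hg1 : ∀ t, 1 / 4 ≤ t → g t = (√t)⁻¹ := by
    intro t ht
    have : Real.smoothTransition (8 * t - 1) = 1 :=
      Real.smoothTransition.one_of_one_le (by linarith)
    simp only [hg, this, one_mul]
  exact ⟨g, hgs, hg1⟩

theorem t_eq {N s : ℝ} (hN : 0 < N + √(N ^ 2 - 4 * s)) (hD : 0 ≤ N ^ 2 - 4 * s) :
    1 - 2 / (N + √(N ^ 2 - 4 * s)) * N + (2 / (N + √(N ^ 2 - 4 * s))) ^ 2 * s = 0 := by
  have h1 := Real.sq_sqrt hD
  set q := √(N ^ 2 - 4 * s) with hq
  have h2 : s = (N ^ 2 - q ^ 2) / 4 := by linarith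
  rw [h2]
  have h3 : N + q ≠ 0 := hN.ne'
  field_simp
  ring

section

variable {V : Type} [NormedAddCommGroup V] [InnerProductSpace ℝ V] {J : V ≃ₗᵢ[ℝ] V}

theorem J_adj (hJ : ∀ x, J (J x) = -x) (x y : V) : (inner ℝ (J x) y : ℝ) = -inner ℝ x (J y) := by
  have h := J.inner_map_map x (J y)
  rw [hJ, inner_neg_right] at h
  linarith

theorem J_self (hJ : ∀ x, J (J x) = -x) (x : V) : (inner ℝ x (J x) : ℝ) = 0 := by
  have h := J_adj hJ x x
  rw [real_inner_comm] at h
  linarith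

theorem orth1 (hJ : ∀ x, J (J x) = -x) (x y : V) (a b t : ℝ) (ha : a = inner ℝ x y)
    (hb : b = inner ℝ x (J y)) :
    (inner ℝ (x - t • (a • y + b • J y)) (y - t • (a • x - b • J x)) : ℝ) =
      a * (1 - t * (‖x‖ ^ 2 + ‖y‖ ^ 2) + t ^ 2 * (a ^ 2 + b ^ 2)) := by
  have e1 : (inner ℝ x x : ℝ) = ‖x‖ ^ 2 := real_inner_self_eq_norm_sq x
  have e2 : (inner ℝ y y : ℝ) = ‖y‖ ^ 2 := real_inner_self_eq_norm_sq y
  have e3 := J_self hJ x
  have e4 : (inner ℝ (J y) y : ℝ) = 0 := by rw [real_inner_comm]; exact J_self hJ y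
  have e5 : (inner ℝ y (J x) : ℝ) = -b := by
    rw [real_inner_comm, J_adj hJ, hb]
  have e6 : (inner ℝ (J y) x : ℝ) = b := by rw [real_inner_comm, hb]
  have e7 : (inner ℝ (J y) (J x) : ℝ) = a := by rw [J.inner_map_map, real_inner_comm, ha]
  have e8 : (inner ℝ y x : ℝ) = a := by rw [real_inner_comm, ha]
  have e9 : (inner ℝ x y : ℝ) = a := ha.symm
  simp only [inner_sub_left, inner_sub_right, inner_add_left, inner_add_right,
    real_inner_smul_left, real_inner_smul_right, e1, e2, e3, e4, e5, e6, e7, e8, e9]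
  ring

theorem orth2 (hJ : ∀ x, J (J x) = -x) (x y : V) (a b t : ℝ) (ha : a = inner ℝ x y)
    (hb : b = inner ℝ x (J y)) :
    (inner ℝ (x - t • (a • y + b • J y)) (J (y - t • (a • x - b • J x))) : ℝ) =
      b * (1 - t * (‖x‖ ^ 2 + ‖y‖ ^ 2) + t ^ 2 * (a ^ 2 + b ^ 2)) := by
  have e0 : J (y - t • (a • x - b • J x)) = J y - t • (a • J x + b • x) := by
    simp only [map_sub, map_smul, hJ, smul_neg, sub_neg_eq_add]
  have e1 : (inner ℝ x x : ℝ) = ‖x‖ ^ 2 := real_inner_self_eq_norm_sq x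
  have e2 : (inner ℝ (J y) (J y) : ℝ) = ‖y‖ ^ 2 := by
    rw [J.inner_map_map]; exact real_inner_self_eq_norm_sq y
  have e3 := J_self hJ x
  have e4 : (inner ℝ y (J y) : ℝ) = 0 := J_self hJ y
  have e5 : (inner ℝ y (J x) : ℝ) = -b := by
    rw [real_inner_comm, J_adj hJ, hb]
  have e6 : (inner ℝ (J y) x : ℝ) = b := by rw [real_inner_comm, hb]
  have e7 : (inner ℝ (J y) (J x) : ℝ) = a := by rw [J.inner_map_map, real_inner_comm, ha]
  have e8 : (inner ℝ y x : ℝ) = a := by rw [real_inner_comm, ha]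
  have e9 : (inner ℝ x (J y) : ℝ) = b := hb.symm
  rw [e0]
  simp only [inner_sub_left, inner_sub_right, inner_add_left, inner_add_right,
    real_inner_smul_left, real_inner_smul_right, e1, e2, e3, e4, e5, e6, e7, e8, e9]
  ring

/-- ROW R1 -/
theorem row_ret [FiniteDimensional ℝ V] (hJ : ∀ x, J (J x) = -x) :
    ∃ (U : Set (WithLp 2 (V × V))) (r : WithLp 2 (V × V) → WithLp 2 (V × V)),
      IsRet (QJ J) U r := by
  obtain ⟨G, hG, hG1⟩ := exists_invsqrt
  have hfst : ContDiff ℝ ∞ (fun z : WithLp 2 (V × V) => z.fst) :=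
    contDiff_fst.comp (WithLp.prodContinuousLinearEquiv 2 ℝ V V).contDiff
  have hsnd : ContDiff ℝ ∞ (fun z : WithLp 2 (V × V) => z.snd) :=
    contDiff_snd.comp (WithLp.prodContinuousLinearEquiv 2 ℝ V V).contDiff
  have hJf : ContDiff ℝ ∞ (fun z : WithLp 2 (V × V) => J z.fst) :=
    J.toContinuousLinearEquiv.contDiff.comp hfst
  have hJs : ContDiff ℝ ∞ (fun z : WithLp 2 (V × V) => J z.snd) :=
    J.toContinuousLinearEquiv.contDiff.comp hsnd
  set a : WithLp 2 (V × V) → ℝ := fun z => inner ℝ z.fst z.snd with ha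
  set b : WithLp 2 (V × V) → ℝ := fun z => inner ℝ z.fst (J z.snd) with hb
  set N : WithLp 2 (V × V) → ℝ := fun z => ‖z.fst‖ ^ 2 + ‖z.snd‖ ^ 2 with hN
  set D : WithLp 2 (V × V) → ℝ := fun z => N z ^ 2 - 4 * (a z ^ 2 + b z ^ 2) with hD
  set E : WithLp 2 (V × V) → ℝ := fun z => N z + D z * G (D z) with hE
  set t : WithLp 2 (V × V) → ℝ := fun z => 2 * G (E z) ^ 2 with ht
  set X : WithLp 2 (V × V) → V := fun z => z.fst - t z • (a z • z.snd + b z • J z.snd) with hX
  set Y : WithLp 2 (V × V) → V := fun z => z.snd - t z • (a z • z.fst - b z • J z.fst) with hY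
  set M : WithLp 2 (V × V) → ℝ := fun z => ‖X z‖ ^ 2 + ‖Y z‖ ^ 2 with hM
  have sa : ContDiff ℝ ∞ a := hfst.inner ℝ hsnd
  have sb : ContDiff ℝ ∞ b := hfst.inner ℝ hJs
  have sN : ContDiff ℝ ∞ N := (hfst.norm_sq ℝ).add (hsnd.norm_sq ℝ)
  have sD : ContDiff ℝ ∞ D := (sN.pow 2).sub (contDiff_const.mul ((sa.pow 2).add (sb.pow 2)))
  have sE : ContDiff ℝ ∞ E := sN.add (sD.mul (hG.comp sD))
  have st : ContDiff ℝ ∞ t := contDiff_const.mul ((hG.comp sE).pow 2)
  have sX : ContDiff ℝ ∞ X := hfst.sub (st.smul ((sa.smul hsnd).add (sb.smul hJs)))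
  have sY : ContDiff ℝ ∞ Y := hsnd.sub (st.smul ((sa.smul hfst).sub (sb.smul hJf)))
  have sM : ContDiff ℝ ∞ M := (sX.norm_sq ℝ).add (sY.norm_sq ℝ)
  set r : WithLp 2 (V × V) → WithLp 2 (V × V) := fun z =>
    (WithLp.prodContinuousLinearEquiv 2 ℝ V V).symm (G (M z) • X z, G (M z) • Y z) with hr
  have sr : ContDiff ℝ ∞ r :=
    (WithLp.prodContinuousLinearEquiv 2 ℝ V V).symm.contDiff.comp
      (((hG.comp sM).smul sX).prodMk ((hG.comp sM).smul sY))
  have r1 : ∀ z, (r z).fst = G (M z) • X z := fun z => rfl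
  have r2 : ∀ z, (r z).snd = G (M z) • Y z := fun z => rfl
  have hquart : √(1 : ℝ) = 1 := Real.sqrt_one
  -- values on QJ
  have hval : ∀ z ∈ QJ J, a z = 0 ∧ b z = 0 ∧ N z = 1 ∧ D z = 1 ∧ E z = 2 ∧ X z = z.fst ∧
      Y z = z.snd ∧ M z = 1 := by
    rintro z ⟨h1, h2, h3⟩
    have ea : a z = 0 := h2
    have eb : b z = 0 := h3
    have eN : N z = 1 := h1
    have eD : D z = 1 := by
      show N z ^ 2 - 4 * (a z ^ 2 + b z ^ 2) = 1
      rw [ea, eb, eN]; norm_num
    have eE : E z = 2 := by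
      show N z + D z * G (D z) = 2
      rw [eN, eD, hG1 1 (by norm_num), hquart]; norm_num
    have eX : X z = z.fst := by
      show z.fst - t z • (a z • z.snd + b z • J z.snd) = z.fst
      rw [ea, eb]; simp
    have eY : Y z = z.snd := by
      show z.snd - t z • (a z • z.fst - b z • J z.fst) = z.snd
      rw [ea, eb]; simp
    refine ⟨ea, eb, eN, eD, eE, eX, eY, ?_⟩
    show ‖X z‖ ^ 2 + ‖Y z‖ ^ 2 = 1
    rw [eX, eY]; exact h1
  refine ⟨{z | 1 / 4 < D z ∧ 1 / 4 < E z ∧ 1 / 4 < M z}, r, ?_, ?_, ?_, sr, ?_, ?_⟩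
  · have : QJ J = {z | N z = 1} ∩ ({z | a z = 0} ∩ {z | b z = 0}) := by
      ext z; rfl
    rw [this]
    exact (isClosed_eq sN.continuous continuous_const).inter
      ((isClosed_eq sa.continuous continuous_const).inter
        (isClosed_eq sb.continuous continuous_const))
  · exact (isOpen_lt continuous_const sD.continuous).inter
      ((isOpen_lt continuous_const sE.continuous).inter
        (isOpen_lt continuous_const sM.continuous))
  · intro z hz
    obtain ⟨-, -, -, h4, h5, -, -, h8⟩ := hval z hz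
    refine ⟨?_, ?_, ?_⟩
    · rw [h4]; norm_num
    · rw [h5]; norm_num
    · rw [h8]; norm_num
  · rintro z ⟨hz1, hz2, hz3⟩
    have hD0 : 0 < D z := by linarith
    have hsD : D z * G (D z) = √(D z) := by
      rw [hG1 _ hz1.le]
      nth_rw 1 [← Real.mul_self_sqrt hD0.le]
      have : √(D z) ≠ 0 := (Real.sqrt_pos.2 hD0).ne'
      field_simp
    have hEe : E z = N z + √(D z) := by
      show N z + D z * G (D z) = _
      rw [hsD]
    have hE0 : 0 < E z := by linarith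
    have hte : t z = 2 / (N z + √(D z)) := by
      show 2 * G (E z) ^ 2 = _
      rw [hG1 _ hz2.le, inv_pow, Real.sq_sqrt hE0.le, ← hEe]
      rfl
    have hk : 1 - t z * N z + t z ^ 2 * (a z ^ 2 + b z ^ 2) = 0 := by
      rw [hte]
      exact t_eq (by
        have : 0 < N z + √(D z) := by rw [← hEe]; exact hE0
        exact this) hD0.le
    have o1 : (inner ℝ (X z) (Y z) : ℝ) = 0 := by
      have h := orth1 hJ z.fst z.snd (a z) (b z) (t z) rfl rfl
      have h' : (inner ℝ (X z) (Y z) : ℝ) =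
        a z * (1 - t z * N z + t z ^ 2 * (a z ^ 2 + b z ^ 2)) := h
      rw [h', hk, mul_zero]
    have o2 : (inner ℝ (X z) (J (Y z)) : ℝ) = 0 := by
      have h := orth2 hJ z.fst z.snd (a z) (b z) (t z) rfl rfl
      have h' : (inner ℝ (X z) (J (Y z)) : ℝ) =
        b z * (1 - t z * N z + t z ^ 2 * (a z ^ 2 + b z ^ 2)) := h
      rw [h', hk, mul_zero]
    have hM0 : 0 < M z := by linarith
    refine ⟨?_, ?_, ?_⟩
    · rw [r1, r2, norm_smul, norm_smul, mul_pow, mul_pow, ← mul_add]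
      show ‖G (M z)‖ ^ 2 * M z = 1
      rw [hG1 _ hz3.le, Real.norm_eq_abs, sq_abs, inv_pow, Real.sq_sqrt hM0.le]
      exact inv_mul_cancel₀ hM0.ne'
    · rw [r1, r2, real_inner_smul_left, real_inner_smul_right, o1]
      ring
    · rw [r1, r2, map_smul, real_inner_smul_left, real_inner_smul_right, o2]
      ring
  · intro z hz
    obtain ⟨-, -, -, -, -, h6, h7, h8⟩ := hval z hz
    have hg : G (M z) = 1 := by rw [h8, hG1 1 (by norm_num), hquart]; norm_num
    show (WithLp.prodContinuousLinearEquiv 2 ℝ V V).symm (G (M z) • X z, G (M z) • Y z) = z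
    rw [hg, h6, h7, one_smul, one_smul]
    rfl

end

end Vale.Agent.P220.R2.H795
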